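import Mathlib

/-!
Continuous actions of the p-adic integers preserving a topological line.
-/

namespace Vale.Agent.Lib.P228

open Filter Topology

variable {p : ℕ} [Fact p.Prime]

lemma tendsto_p_pow_nsmul (γ : ℤ_[p]) :
    Tendsto (fun j : ℕ => (p ^ j) • γ) atTop (𝓝 0) := by
  have h0 : ‖(p : ℤ_[p])‖ < 1 := (PadicInt.norm_lt_one_iff_dvd _).mpr dvd_rfl
  have h1 : Tendsto (fun j : ℕ => (p : ℤ_[p]) ^ j) atTop (𝓝 0) :=
    tendsto_pow_atTop_nhds_zero_of_norm_lt_one h0
  have h2 : Tendsto (fun j : ℕ => (p : ℤ_[p]) ^ j * γ) atTop (𝓝 (0 * γ)) :=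
    h1.mul_const γ
  rw [zero_mul] at h2
  refine h2.congr ?_
  intro j
  rw [nsmul_eq_mul]
  push_cast
  rfl

/-- An increasing self-map of the line some of whose iterates `h^[n j]`, `n j ≥ 1`, converge to
the identity at `t` fixes `t`. -/
lemma fixed_of_iterate_tendsto (h : ℝ → ℝ) (hmono : StrictMono h) (t : ℝ) (n : ℕ → ℕ)
    (hn : ∀ j, 1 ≤ n j) (hlim : Tendsto (fun j => h^[n j] t) atTop (𝓝 t)) : h t = t := by
  rcases lt_trichotomy (h t) t with hlt | heq | hgt
  · exfalso
    have hle : ∀ m : ℕ, 1 ≤ m → h^[m] t ≤ h t := by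
      intro m hm
      induction m, hm using Nat.le_induction with
      | base => simp
      | succ m _ ih =>
        rw [Function.iterate_succ_apply']
        exact (hmono.monotone ih).trans (hmono.monotone hlt.le)
    have : t ≤ h t := le_of_tendsto' hlim (fun j => hle _ (hn j))
    exact absurd hlt (not_lt.mpr this)
  · exact heq
  · exfalso
    have hle : ∀ m : ℕ, 1 ≤ m → h t ≤ h^[m] t := by
      intro m hm
      induction m, hm using Nat.le_induction with
      | base => simp
      | succ m _ ih =>
        rw [Function.iterate_succ_apply']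
        exact (hmono.monotone hgt.le).trans (hmono.monotone ih)
    have : h t ≤ t := ge_of_tendsto' hlim (fun j => hle _ (hn j))
    exact absurd hgt (not_lt.mpr this)

variable {E : Type*} [TopologicalSpace E] [AddAction ℤ_[p] E] [ContinuousVAdd ℤ_[p] E]

/-- If `g` maps a subset `F` homeomorphic to the real line into itself, then `g + g` fixes `F`
pointwise. -/
theorem add_self_vadd_eq (F : Set E) (φ : F ≃ₜ ℝ) (g : ℤ_[p]) (hg : ∀ e ∈ F, g +ᵥ e ∈ F)
    (e : E) (he : e ∈ F) : (g + g) +ᵥ e = e := by
  -- the restriction of g to F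
  let f : F → F := fun x => ⟨g +ᵥ (x : E), hg x x.2⟩
  have hfc : Continuous f := by
    apply Continuous.subtype_mk
    exact (continuous_const_vadd g).comp continuous_subtype_val
  have hfi : Function.Injective f := by
    intro x y hxy
    have : g +ᵥ (x : E) = g +ᵥ (y : E) := congrArg Subtype.val hxy
    exact Subtype.ext (vadd_left_cancel g this)
  let ft : ℝ → ℝ := fun t => φ (f (φ.symm t))
  have hftc : Continuous ft := φ.continuous.comp (hfc.comp φ.symm.continuous)
  have hfti : Function.Injective ft :=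
    φ.injective.comp (hfi.comp φ.symm.injective)
  let h : ℝ → ℝ := ft ∘ ft
  have hmono : StrictMono h := by
    rcases hftc.strictMono_of_inj hfti with hm | ha
    · exact hm.comp hm
    · exact ha.comp ha
  have hmem : ∀ (m : ℕ) (x : F), (m • (g + g)) +ᵥ (x : E) ∈ F := by
    intro m x
    induction m with
    | zero => simp
    | succ m ih =>
      rw [succ_nsmul', add_vadd, add_vadd]
      exact hg _ (hg _ ih)
  -- iterates of h
  have hiter : ∀ (m : ℕ) (x : F), h^[m] (φ x) = φ ⟨(m • (g + g)) +ᵥ (x : E), hmem m x⟩ := by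
    intro m x
    induction m with
    | zero => simp
    | succ m ih =>
      rw [Function.iterate_succ_apply', ih]
      simp only [h, ft, f, Function.comp_apply, Homeomorph.symm_apply_apply]
      congr 2
      rw [succ_nsmul', add_vadd, add_vadd]
  have hlimE : Tendsto (fun j : ℕ => ((p ^ j) • (g + g)) +ᵥ e) atTop (𝓝 e) := by
    have h1 := tendsto_p_pow_nsmul (p := p) (g + g)
    have h2 : Tendsto (fun j : ℕ => (((p ^ j) • (g + g) : ℤ_[p]), e)) atTop
        (𝓝 ((0 : ℤ_[p]), e)) := h1.prodMk_nhds tendsto_const_nhds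
    have h3 := (continuous_vadd (M := ℤ_[p]) (X := E)).tendsto ((0 : ℤ_[p]), e)
    have h4 := h3.comp h2
    rw [zero_vadd] at h4
    exact h4
  have hfix : h (φ ⟨e, he⟩) = φ ⟨e, he⟩ := by
    apply fixed_of_iterate_tendsto h hmono _ (fun j => p ^ j)
      (fun j => Nat.one_le_pow _ _ (Fact.out : p.Prime).pos)
    simp only [hiter]
    apply (φ.continuous.tendsto _).comp
    rw [tendsto_subtype_rng]
    exact hlimE
  have h5 := hiter 1 ⟨e, he⟩
  rw [Function.iterate_one, hfix] at h5
  have h6 := congrArg Subtype.val (φ.injective h5)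
  simpa using h6.symm

end Vale.Agent.Lib.P228
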