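import Vale.Agent.Lib.P228.Triangular

/-!
Actions of the p-adic integers on `X × ℝ^k` which are triangular in the `ℝ^k` coordinates.
-/

namespace Vale.Agent.Lib.P228

open Filter Topology

variable {p : ℕ} [Fact p.Prime] {X : Type*} [TopologicalSpace X] {k : ℕ}
  [AddAction ℤ_[p] (X × (Fin k → ℝ))] [ContinuousVAdd ℤ_[p] (X × (Fin k → ℝ))]

/-- The subgroup of elements fixing the `X`-coordinate and the first `i` real coordinates of
every point. -/
def fixBaseFirst (p : ℕ) [Fact p.Prime] (X : Type*) (k : ℕ)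
    [AddAction ℤ_[p] (X × (Fin k → ℝ))] (i : ℕ) : AddSubgroup ℤ_[p] where
  carrier := {δ | ∀ z : X × (Fin k → ℝ), (δ +ᵥ z).1 = z.1 ∧
    ∀ j : Fin k, j.val < i → (δ +ᵥ z).2 j = z.2 j}
  add_mem' := by
    intro a b ha hb z
    refine ⟨by rw [add_vadd, (ha _).1, (hb _).1], fun j hj => ?_⟩
    rw [add_vadd, (ha _).2 j hj, (hb _).2 j hj]
  zero_mem' := by
    intro z
    rw [zero_vadd]
    exact ⟨rfl, fun _ _ => rfl⟩
  neg_mem' := by
    intro a ha z
    have := ha (-a +ᵥ z)
    rw [vadd_neg_vadd] at this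
    exact ⟨this.1.symm, fun j hj => (this.2 j hj).symm⟩

theorem add_self_mem_fixBaseFirst
    (htri : ∀ (g : ℤ_[p]) (z w : X × (Fin k → ℝ)) (i : Fin k), z.1 = w.1 →
      (∀ j ≤ i, z.2 j = w.2 j) → (g +ᵥ z).2 i = (g +ᵥ w).2 i)
    (i : ℕ) (γ : ℤ_[p]) (hγ : γ ∈ fixBaseFirst p X k i) :
    γ + γ ∈ fixBaseFirst p X k (i + 1) := by
  classical
  intro z
  refine ⟨((fixBaseFirst p X k i).add_mem hγ hγ z).1, fun j hj => ?_⟩
  rcases Nat.lt_succ_iff_lt_or_eq.mp hj with hlt | heq
  · exact ((fixBaseFirst p X k i).add_mem hγ hγ z).2 j hlt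
  · let f : ℤ_[p] → ℝ → ℝ := fun δ t => (δ +ᵥ (z.1, Function.update z.2 j t)).2 j
    have key := family_fixed (fixBaseFirst p X k i) f (by intro t; simp [f]) ?_ ?_ ?_ γ hγ (z.2 j)
    · simpa [f] using key
    · intro a _ b hb t
      simp only [f]
      rw [add_vadd]
      apply htri
      · exact (hb _).1
      · intro l hl
        rcases lt_or_eq_of_le hl with hlt | rfl
        · have h1 : l.val < i := by rw [← heq]; exact hlt
          rw [(hb _).2 l h1]
          simp only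
          rw [Function.update_of_ne (ne_of_lt hlt), Function.update_of_ne (ne_of_lt hlt)]
        · simp
    · intro a
      have h1 : Continuous fun t : ℝ => ((z.1, Function.update z.2 j t) : X × (Fin k → ℝ)) :=
        continuous_const.prodMk (continuous_const.update j continuous_id)
      exact (continuous_apply j).comp (continuous_snd.comp ((continuous_const_vadd a).comp h1))
    · intro t
      have h1 : Continuous fun a : ℤ_[p] =>
          (a +ᵥ ((z.1, Function.update z.2 j t) : X × (Fin k → ℝ))).2 j :=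
        (continuous_apply j).comp (continuous_snd.comp (continuous_id.vadd continuous_const))
      have h2 := h1.tendsto 0
      simpa [f] using h2

theorem two_pow_nsmul_mem_fixBaseFirst
    (htri : ∀ (g : ℤ_[p]) (z w : X × (Fin k → ℝ)) (i : Fin k), z.1 = w.1 →
      (∀ j ≤ i, z.2 j = w.2 j) → (g +ᵥ z).2 i = (g +ᵥ w).2 i)
    (g : ℤ_[p]) (hg : ∀ z : X × (Fin k → ℝ), (g +ᵥ z).1 = z.1) (i : ℕ) :
    (2 ^ i) • g ∈ fixBaseFirst p X k i := by
  induction i with
  | zero =>
    intro z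
    rw [pow_zero, one_nsmul]
    exact ⟨hg z, fun j hj => absurd hj (Nat.not_lt_zero _)⟩
  | succ i ih =>
    have := add_self_mem_fixBaseFirst htri i _ ih
    rwa [← two_nsmul, smul_smul, ← pow_succ'] at this

/-- If `g` fixes all `X`-coordinates, then `2 ^ k • g` acts trivially. -/
theorem two_pow_nsmul_vadd_eq
    (htri : ∀ (g : ℤ_[p]) (z w : X × (Fin k → ℝ)) (i : Fin k), z.1 = w.1 →
      (∀ j ≤ i, z.2 j = w.2 j) → (g +ᵥ z).2 i = (g +ᵥ w).2 i)
    (g : ℤ_[p]) (hg : ∀ z : X × (Fin k → ℝ), (g +ᵥ z).1 = z.1) (z : X × (Fin k → ℝ)) :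
    ((2 ^ k) • g) +ᵥ z = z := by
  have h := two_pow_nsmul_mem_fixBaseFirst htri g hg k z
  apply Prod.ext h.1
  funext j
  exact h.2 j j.2

lemma eq_zero_of_two_pow_nsmul (g : ℤ_[p]) (k : ℕ) (h : (2 ^ k) • g = 0) : g = 0 := by
  rw [nsmul_eq_mul] at h
  rcases mul_eq_zero.mp h with h | h
  · exfalso
    have h2 : ((2 ^ k : ℕ) : ℤ_[p]) ≠ 0 := by
      exact_mod_cast (pow_ne_zero k (two_ne_zero) : (2 ^ k : ℕ) ≠ 0)
    exact h2 h
  · exact h

end Vale.Agent.Lib.P228
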