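import Vale.Agent.Lib.P228.Line

/-!
Triangular actions of the p-adic integers on `ℝ^n`.
-/

namespace Vale.Agent.Lib.P228

open Filter Topology

variable {p : ℕ} [Fact p.Prime]

/-- A family of self-maps of the line, additive on a subgroup `S` and continuous. -/
lemma family_fixed (S : AddSubgroup ℤ_[p]) (f : ℤ_[p] → ℝ → ℝ) (h0 : ∀ t, f 0 t = t)
    (hadd : ∀ a ∈ S, ∀ b ∈ S, ∀ t, f (a + b) t = f a (f b t))
    (hc : ∀ a, Continuous (f a)) (hc0 : ∀ t, Tendsto (fun a => f a t) (𝓝 0) (𝓝 t))
    (γ : ℤ_[p]) (hγ : γ ∈ S) (t : ℝ) : f (γ + γ) t = t := by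
  have hinj : Function.Injective (f γ) := by
    intro a b hab
    have h1 := hadd (-γ) (S.neg_mem hγ) γ hγ a
    have h2 := hadd (-γ) (S.neg_mem hγ) γ hγ b
    rw [neg_add_cancel, h0] at h1 h2
    rw [h1, h2, hab]
  have hmono : StrictMono (f γ ∘ f γ) := by
    rcases (hc γ).strictMono_of_inj hinj with hm | ha
    · exact hm.comp hm
    · exact ha.comp ha
  have hiter : ∀ m : ℕ, (f γ ∘ f γ)^[m] t = f (m • (γ + γ)) t := by
    intro m
    induction m with
    | zero => simp [h0]
    | succ m ih =>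
      rw [Function.iterate_succ_apply', ih, succ_nsmul', add_assoc,
        hadd γ hγ _ (S.add_mem hγ (S.nsmul_mem (S.add_mem hγ hγ) m)),
        hadd γ hγ _ (S.nsmul_mem (S.add_mem hγ hγ) m)]
      rfl
  have hfix : (f γ ∘ f γ) t = t := by
    apply fixed_of_iterate_tendsto _ hmono _ (fun j => p ^ j)
      (fun j => Nat.one_le_pow _ _ (Fact.out : p.Prime).pos)
    simp only [hiter]
    exact (hc0 t).comp (tendsto_p_pow_nsmul (γ + γ))
  rw [hadd γ hγ γ hγ]
  exact hfix

variable {n : ℕ} [AddAction ℤ_[p] (Fin n → ℝ)] [ContinuousVAdd ℤ_[p] (Fin n → ℝ)]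

/-- The subgroup of elements fixing the first `i` coordinates of every point. -/
def fixFirst (p : ℕ) [Fact p.Prime] (n : ℕ) [AddAction ℤ_[p] (Fin n → ℝ)] (i : ℕ) :
    AddSubgroup ℤ_[p] where
  carrier := {δ | ∀ (x : Fin n → ℝ) (j : Fin n), j.val < i → (δ +ᵥ x) j = x j}
  add_mem' := by
    intro a b ha hb x j hj
    rw [add_vadd, ha _ j hj, hb _ j hj]
  zero_mem' := by
    intro x j _
    rw [zero_vadd]
  neg_mem' := by
    intro a ha x j hj
    have := ha (-a +ᵥ x) j hj
    rw [vadd_neg_vadd] at this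
    exact this.symm

theorem add_self_mem_fixFirst
    (htri : ∀ (g : ℤ_[p]) (x y : Fin n → ℝ) (i : Fin n),
      (∀ j ≤ i, x j = y j) → (g +ᵥ x) i = (g +ᵥ y) i)
    (i : ℕ) (γ : ℤ_[p]) (hγ : γ ∈ fixFirst p n i) : γ + γ ∈ fixFirst p n (i + 1) := by
  classical
  intro x j hj
  rcases Nat.lt_succ_iff_lt_or_eq.mp hj with hlt | heq
  · exact (fixFirst p n i).add_mem hγ hγ x j hlt
  · -- the coordinate `j` with `j.val = i`
    let f : ℤ_[p] → ℝ → ℝ := fun δ t => (δ +ᵥ Function.update x j t) j
    have key := family_fixed (fixFirst p n i) f (by intro t; simp [f]) ?_ ?_ ?_ γ hγ (x j)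
    · simpa [f] using key
    · intro a _ b hb t
      simp only [f]
      rw [add_vadd]
      apply htri
      intro l hl
      rcases lt_or_eq_of_le hl with hlt | rfl
      · have h1 : l.val < i := by rw [← heq]; exact hlt
        rw [hb _ l h1, Function.update_of_ne (ne_of_lt hlt), Function.update_of_ne (ne_of_lt hlt)]
      · simp
    · intro a
      have h1 : Continuous fun t : ℝ => Function.update x j t :=
        continuous_const.update j continuous_id
      exact (continuous_apply j).comp ((continuous_const_vadd a).comp h1)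
    · intro t
      have h1 : Continuous fun a : ℤ_[p] => (a +ᵥ Function.update x j t) j :=
        (continuous_apply j).comp (continuous_id.vadd continuous_const)
      have h2 := h1.tendsto 0
      simpa [f] using h2

theorem two_pow_nsmul_mem_fixFirst
    (htri : ∀ (g : ℤ_[p]) (x y : Fin n → ℝ) (i : Fin n),
      (∀ j ≤ i, x j = y j) → (g +ᵥ x) i = (g +ᵥ y) i)
    (i : ℕ) (g : ℤ_[p]) : (2 ^ i) • g ∈ fixFirst p n i := by
  induction i with
  | zero => intro x j hj; exact absurd hj (Nat.not_lt_zero _)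
  | succ i ih =>
    have := add_self_mem_fixFirst htri i _ ih
    rwa [← two_nsmul, smul_smul, ← pow_succ'] at this

end Vale.Agent.Lib.P228
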